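import Vale.Agent.P252.Glue

/-!
The affine Bernstein problem fails in every dimension `n ≥ 10`.
-/

namespace Vale.Agent.Results.P252.SmoothBernstein

open Vale.Agent.P252
open scoped ContDiff

/-- `u` is a polynomial of degree at most two: `u(x) = ½ xᵀ A x + b·x + c`. -/
def IsQuadratic {n : ℕ} (u : EuclideanSpace ℝ (Fin n) → ℝ) : Prop :=
  ∃ (A : Matrix (Fin n) (Fin n) ℝ) (b : Fin n → ℝ) (c : ℝ), ∀ x : EuclideanSpace ℝ (Fin n),
    u x = 1 / 2 * (∑ i, ∑ j, A i j * x i * x j) + (∑ i, b i * x i) + c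

theorem not_isQuadratic {m : ℕ} {u : EuclideanSpace ℝ (Fin (m + 1)) → ℝ}
    (h : ∀ y : ℝ, u (EuclideanSpace.single 0 y) = Real.sqrt (y ^ 2 + 1)) :
    ¬ IsQuadratic u := by
  rintro ⟨A, b, c, hq⟩
  have key : ∀ y : ℝ, Real.sqrt (y ^ 2 + 1) = 1 / 2 * (A 0 0 * y * y) + b 0 * y + c := by
    intro y
    rw [← h y, hq]
    have e1 : (∑ i, b i * (EuclideanSpace.single (0 : Fin (m + 1)) y) i) = b 0 * y := by
      rw [Finset.sum_eq_single (0 : Fin (m + 1))]
      · simp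
      · intro i _ hi
        simp [hi]
      · simp
    have e2 : (∑ i, ∑ j, A i j * (EuclideanSpace.single (0 : Fin (m + 1)) y) i
        * (EuclideanSpace.single (0 : Fin (m + 1)) y) j) = A 0 0 * y * y := by
      rw [Finset.sum_eq_single (0 : Fin (m + 1))]
      · rw [Finset.sum_eq_single (0 : Fin (m + 1))]
        · simp
        · intro j _ hj
          simp [hj]
        · simp
      · intro i _ hi
        apply Finset.sum_eq_zero
        intro j _
        simp [hi]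
      · simp
    rw [e1, e2]
  have h0 := key 0
  have h1 := key 1
  have h2 := key (-1)
  have h3 := key 2
  norm_num at h0 h1 h2 h3
  have s2 : Real.sqrt 2 * Real.sqrt 2 = 2 := Real.mul_self_sqrt (by norm_num)
  have s5 : Real.sqrt 5 * Real.sqrt 5 = 5 := Real.mul_self_sqrt (by norm_num)
  have hs2 : 0 ≤ Real.sqrt 2 := Real.sqrt_nonneg 2
  have e5 : Real.sqrt 5 = 4 * Real.sqrt 2 - 3 := by linarith
  rw [e5] at s5
  have e2 : Real.sqrt 2 = 3 / 2 := by nlinarith
  rw [e2] at s2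
  norm_num at s2

theorem result : ∀ n : ℕ, 10 ≤ n → ∃ u : EuclideanSpace ℝ (Fin n) → ℝ,
    ContDiff ℝ ∞ u ∧ (∀ x, (hess u x).PosDef) ∧ (∀ x, amOp u x = 0) ∧ ¬ IsQuadratic u := by
  intro n hn
  obtain ⟨k, rfl⟩ : ∃ k, n = k + 1 + 1 := ⟨n - 2, by omega⟩
  obtain ⟨u, h1, h2, h3, h4⟩ := entire_solution (k := k) (by omega)
  exact ⟨u, h1, h2, h3, not_isQuadratic h4⟩

end Vale.Agent.Results.P252.SmoothBernstein
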